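import Vale.Agent.Lib.P121.Final

open MeasureTheory in
/-- There is an absolutely continuous probability measure on three-dimensional Euclidean space with
finite Kantorovich value for the three-marginal Coulomb cost which admits no optimal Monge plan. -/
theorem Vale.Agent.Results.P121.A_no_monge.result :
    ∃ μ : Measure (EuclideanSpace ℝ (Fin 3)), IsProbabilityMeasure μ ∧ μ ≪ volume ∧
      Vale.Agent.Lib.P121.value3 Vale.Agent.Lib.P121.coulomb μ < ⊤ ∧
      ¬ ∃ T₂ T₃ : EuclideanSpace ℝ (Fin 3) → EuclideanSpace ℝ (Fin 3),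
        Measurable T₂ ∧ Measurable T₃ ∧ μ.map T₂ = μ ∧ μ.map T₃ = μ ∧
        ∫⁻ x, Vale.Agent.Lib.P121.coulomb x (T₂ x) (T₃ x) ∂μ =
          Vale.Agent.Lib.P121.value3 Vale.Agent.Lib.P121.coulomb μ :=
  Vale.Agent.Lib.P121.no_monge_exists
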